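import Mathlib

/-!
# P243, part C: the coordinate core of the two-direction cylinder covering theorem

`core_of`: for a compact convex `K ⊆ ℝ × ℝ × ℝ` with coordinates t, p, q covered by a
cylinder over `S` in the t-p-plane and a cylinder over `T` in the t-q-plane,
`1/2 ≤ area S / area (proj₁ K) + area T / area (proj₂ K)`.
The planar two-plank lemma, the tent bound and the tent integral enter as hypotheses.
-/

namespace Vale.Agent.Lib.Helper7.P243

open MeasureTheory Set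

theorem core_real_aux {l1 l2 σ τ V1 V2 L m : ℝ} (hσ : 0 ≤ σ) (hτ : 0 ≤ τ)
    (hV1 : 0 < V1) (hV2 : 0 < V2) (hL : 0 < L) (hm : 0 ≤ m)
    (plank : l1 * l2 ≤ σ * l2 + τ * l1) (t1 : V1 * m ≤ L * l1) (t2 : V2 * m ≤ L * l2) :
    m / L ≤ σ / V1 + τ / V2 := by
  rcases hm.eq_or_lt with rfl | hm
  · simp only [zero_div]
    positivity
  · have hl1 : 0 < l1 := by
      by_contra h
      have h' : l1 ≤ 0 := le_of_not_gt h
      have : L * l1 ≤ 0 := mul_nonpos_of_nonneg_of_nonpos hL.le h'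
      have : 0 < V1 * m := mul_pos hV1 hm
      linarith
    have hl2 : 0 < l2 := by
      by_contra h
      have h' : l2 ≤ 0 := le_of_not_gt h
      have : L * l2 ≤ 0 := mul_nonpos_of_nonneg_of_nonpos hL.le h'
      have : 0 < V2 * m := mul_pos hV2 hm
      linarith
    have e1 : σ * m / (L * l1) ≤ σ / V1 := by
      rw [div_le_div_iff₀ (by positivity) hV1]
      nlinarith [mul_le_mul_of_nonneg_left t1 hσ]
    have e2 : τ * m / (L * l2) ≤ τ / V2 := by
      rw [div_le_div_iff₀ (by positivity) hV2]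
      nlinarith [mul_le_mul_of_nonneg_left t2 hτ]
    have e3 : m / L ≤ σ * m / (L * l1) + τ * m / (L * l2) := by
      have e : σ * m / (L * l1) + τ * m / (L * l2)
          = (m / L) * ((σ * l2 + τ * l1) / (l1 * l2)) := by
        field_simp
      rw [e]
      have h1 : 1 ≤ (σ * l2 + τ * l1) / (l1 * l2) := by
        rw [le_div_iff₀ (by positivity)]
        linarith
      exact le_mul_of_one_le_right (by positivity) h1
    linarith

theorem core_ennreal_aux {l1 l2 σ τ V1 V2 L m : ENNReal}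
    (hl1 : l1 ≠ ⊤) (hl2 : l2 ≠ ⊤) (hσ : σ ≠ ⊤) (hτ : τ ≠ ⊤)
    (hV1 : V1 ≠ 0) (hV1' : V1 ≠ ⊤) (hV2 : V2 ≠ 0) (hV2' : V2 ≠ ⊤)
    (hL : L ≠ 0) (hL' : L ≠ ⊤) (hm : m ≠ ⊤)
    (plank : l1 * l2 ≤ σ * l2 + τ * l1) (t1 : V1 * m ≤ L * l1) (t2 : V2 * m ≤ L * l2) :
    m / L ≤ σ / V1 + τ / V2 := by
  lift l1 to NNReal using hl1
  lift l2 to NNReal using hl2
  lift σ to NNReal using hσ
  lift τ to NNReal using hτ
  lift V1 to NNReal using hV1'
  lift V2 to NNReal using hV2'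
  lift L to NNReal using hL'
  lift m to NNReal using hm
  have hV1n : V1 ≠ 0 := by exact_mod_cast hV1
  have hV2n : V2 ≠ 0 := by exact_mod_cast hV2
  have hLn : L ≠ 0 := by exact_mod_cast hL
  have plank' : (l1 : ℝ) * l2 ≤ σ * l2 + τ * l1 := by exact_mod_cast plank
  have t1' : (V1 : ℝ) * m ≤ L * l1 := by exact_mod_cast t1
  have t2' : (V2 : ℝ) * m ≤ L * l2 := by exact_mod_cast t2
  have key : (m : ℝ) / L ≤ σ / V1 + τ / V2 :=
    core_real_aux σ.2 τ.2 (lt_of_le_of_ne V1.2 (by exact_mod_cast hV1n.symm))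
      (lt_of_le_of_ne V2.2 (by exact_mod_cast hV2n.symm))
      (lt_of_le_of_ne L.2 (by exact_mod_cast hLn.symm)) m.2 plank' t1' t2'
  have key' : m / L ≤ σ / V1 + τ / V2 := by exact_mod_cast key
  rw [← ENNReal.coe_div hLn, ← ENNReal.coe_div hV1n, ← ENNReal.coe_div hV2n, ← ENNReal.coe_add]
  exact_mod_cast key'

theorem core_of_measurable
    (plank : ∀ (C : Set (ℝ × ℝ)), Convex ℝ C → IsCompact C → ∀ (S T : Set ℝ), MeasurableSet S →
        MeasurableSet T → (∀ z ∈ C, z.1 ∈ S ∨ z.2 ∈ T) →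
        volume (Prod.fst '' C) * volume (Prod.snd '' C)
          ≤ volume (S ∩ Prod.fst '' C) * volume (Prod.snd '' C)
            + volume (T ∩ Prod.snd '' C) * volume (Prod.fst '' C))
    (tent : ∀ (D : Set (ℝ × ℝ)), Convex ℝ D → IsCompact D → ∀ (t₀ t₁ : ℝ), (∃ p, (t₀, p) ∈ D) →
        (∃ p, (t₁, p) ∈ D) → (∀ z ∈ D, t₀ ≤ z.1 ∧ z.1 ≤ t₁) → ∀ τ ∈ Set.Icc t₀ t₁,
        volume D * ENNReal.ofReal (2 * min (τ - t₀) (t₁ - τ))
          ≤ ENNReal.ofReal ((t₁ - t₀) ^ 2) * volume {p : ℝ | (τ, p) ∈ D})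
    (tentInt : ∀ (t₀ t₁ : ℝ), t₀ ≤ t₁ →
        ∫⁻ t in Set.Icc t₀ t₁, ENNReal.ofReal (2 * min (t - t₀) (t₁ - t))
          = ENNReal.ofReal ((t₁ - t₀) ^ 2 / 2))
    {K : Set (ℝ × ℝ × ℝ)} (hK : Convex ℝ K) (hKc : IsCompact K)
    {S T : Set (ℝ × ℝ)} (hS : MeasurableSet S) (hT : MeasurableSet T)
    (hcov : ∀ x ∈ K, (x.1, x.2.1) ∈ S ∨ (x.1, x.2.2) ∈ T)
    (h1 : volume ((fun x : ℝ × ℝ × ℝ => (x.1, x.2.1)) '' K) ≠ 0)
    (h2 : volume ((fun x : ℝ × ℝ × ℝ => (x.1, x.2.2)) '' K) ≠ 0) :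
    (1 / 2 : ENNReal) ≤ volume S / volume ((fun x : ℝ × ℝ × ℝ => (x.1, x.2.1)) '' K)
      + volume T / volume ((fun x : ℝ × ℝ × ℝ => (x.1, x.2.2)) '' K) := by
  classical
  set P1 : ℝ × ℝ × ℝ → ℝ × ℝ := fun x => (x.1, x.2.1) with hP1
  set P2 : ℝ × ℝ × ℝ → ℝ × ℝ := fun x => (x.1, x.2.2) with hP2
  set D1 : Set (ℝ × ℝ) := P1 '' K with hD1
  set D2 : Set (ℝ × ℝ) := P2 '' K with hD2
  have hP1c : Continuous P1 := by simp only [hP1]; fun_prop
  have hP2c : Continuous P2 := by simp only [hP2]; fun_prop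
  have hD1c : IsCompact D1 := hKc.image hP1c
  have hD2c : IsCompact D2 := hKc.image hP2c
  have hD1m : MeasurableSet D1 := hD1c.isClosed.measurableSet
  have hD2m : MeasurableSet D2 := hD2c.isClosed.measurableSet
  have hD1conv : Convex ℝ D1 := by
    rintro _ ⟨x, hx, rfl⟩ _ ⟨y, hy, rfl⟩ a b ha hb hab
    exact ⟨a • x + b • y, hK hx hy ha hb hab, by simp [hP1]⟩
  have hD2conv : Convex ℝ D2 := by
    rintro _ ⟨x, hx, rfl⟩ _ ⟨y, hy, rfl⟩ a b ha hb hab
    exact ⟨a • x + b • y, hK hx hy ha hb hab, by simp [hP2]⟩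
  have hV1top : volume D1 ≠ ⊤ := hD1c.measure_lt_top.ne
  have hV2top : volume D2 ≠ ⊤ := hD2c.measure_lt_top.ne
  -- K is nonempty
  have hKne : K.Nonempty := by
    by_contra h
    rw [Set.not_nonempty_iff_eq_empty] at h
    apply h1
    rw [hD1, h, Set.image_empty, measure_empty]
  -- range of the first coordinate
  obtain ⟨x0, hx0, hmin⟩ := hKc.exists_isMinOn hKne continuous_fst.continuousOn
  obtain ⟨x1, hx1, hmax⟩ := hKc.exists_isMaxOn hKne continuous_fst.continuousOn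
  set t₀ := x0.1 with ht₀
  set t₁ := x1.1 with ht₁
  have hrange : ∀ x ∈ K, t₀ ≤ x.1 ∧ x.1 ≤ t₁ := fun x hx => ⟨hmin hx, hmax hx⟩
  have ht01 : t₀ ≤ t₁ := (hrange x1 hx1).1
  have hlt : t₀ < t₁ := by
    rcases eq_or_lt_of_le ht01 with h | h
    · exfalso
      apply h1
      have hsub : D1 ⊆ ({t₀} : Set ℝ) ×ˢ (univ : Set ℝ) := by
        rintro _ ⟨x, hx, rfl⟩
        have := hrange x hx
        simp only [hP1, mem_prod, mem_singleton_iff, mem_univ, and_true]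
        exact le_antisymm (h ▸ this.2) this.1
      have hz : volume (({t₀} : Set ℝ) ×ˢ (univ : Set ℝ)) = 0 := by
        rw [Measure.volume_eq_prod, Measure.prod_prod]
        simp
      exact measure_mono_null hsub hz
    · exact h
  have hLpos : 0 < (t₁ - t₀) ^ 2 := by
    have : 0 < t₁ - t₀ := by linarith
    positivity
  set L2 : ENNReal := ENNReal.ofReal ((t₁ - t₀) ^ 2) with hL2
  have hL2ne : L2 ≠ 0 := by
    simp only [hL2, ne_eq, ENNReal.ofReal_eq_zero, not_le]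
    exact hLpos
  have hL2top : L2 ≠ ⊤ := ENNReal.ofReal_ne_top
  -- slices
  let C : ℝ → Set (ℝ × ℝ) := fun t => Prod.mk t ⁻¹' K
  have hCconv : ∀ t, Convex ℝ (C t) := by
    intro t z hz z' hz' a b ha hb hab
    have hmem := hK hz hz' ha hb hab
    have e : a • ((t, z) : ℝ × ℝ × ℝ) + b • ((t, z') : ℝ × ℝ × ℝ) = (t, a • z + b • z') := by
      refine Prod.ext ?_ ?_
      · simp only [Prod.fst_add, Prod.smul_fst, smul_eq_mul]
        rw [← add_mul, hab, one_mul]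
      · simp only [Prod.snd_add, Prod.smul_snd]
    rw [e] at hmem
    exact hmem
  have hsndK : IsCompact (Prod.snd '' K) := hKc.image continuous_snd
  have hCc : ∀ t, IsCompact (C t) := by
    intro t
    apply hsndK.of_isClosed_subset (hKc.isClosed.preimage (Continuous.prodMk_right t))
    intro z hz
    exact ⟨(t, z), hz, rfl⟩
  have hsec1 : ∀ t, Prod.mk t ⁻¹' D1 = Prod.fst '' C t := by
    intro t
    ext p
    constructor
    · rintro ⟨x, hx, hxe⟩
      have h1' : x.1 = t := congrArg Prod.fst hxe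
      have h2' : x.2.1 = p := congrArg Prod.snd hxe
      refine ⟨(p, x.2.2), ?_, rfl⟩
      have : (t, (p, x.2.2)) = x := by
        rw [← h1', ← h2']
      simp only [C, mem_preimage, this]
      exact hx
    · rintro ⟨z, hz, rfl⟩
      exact ⟨(t, z), hz, rfl⟩
  have hsec2 : ∀ t, Prod.mk t ⁻¹' D2 = Prod.snd '' C t := by
    intro t
    ext q
    constructor
    · rintro ⟨x, hx, hxe⟩
      have h1' : x.1 = t := congrArg Prod.fst hxe
      have h2' : x.2.2 = q := congrArg Prod.snd hxe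
      refine ⟨(x.2.1, q), ?_, rfl⟩
      have : (t, (x.2.1, q)) = x := by
        rw [← h1', ← h2']
      simp only [C, mem_preimage, this]
      exact hx
    · rintro ⟨z, hz, rfl⟩
      exact ⟨(t, z), hz, rfl⟩
  -- the two slice measures
  let σ : ℝ → ENNReal := fun t => volume (Prod.mk t ⁻¹' (S ∩ D1))
  let τ' : ℝ → ENNReal := fun t => volume (Prod.mk t ⁻¹' (T ∩ D2))
  have hσm : Measurable σ := measurable_measure_prodMk_left (hS.inter hD1m)
  have hτm : Measurable τ' := measurable_measure_prodMk_left (hT.inter hD2m)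
  let μ : ℝ → ENNReal := fun t => ENNReal.ofReal (2 * min (t - t₀) (t₁ - t))
  -- pointwise inequality
  have hpt : ∀ t ∈ Icc t₀ t₁, μ t / L2 ≤ σ t / volume D1 + τ' t / volume D2 := by
    intro t ht
    have hfst : IsCompact (Prod.fst '' C t) := (hCc t).image continuous_fst
    have hsnd : IsCompact (Prod.snd '' C t) := (hCc t).image continuous_snd
    have hpl := plank (C t) (hCconv t) (hCc t) (Prod.mk t ⁻¹' S) (Prod.mk t ⁻¹' T)
      (measurable_prodMk_left hS) (measurable_prodMk_left hT)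
      (fun z hz => hcov (t, z) hz)
    have ht1 := tent D1 hD1conv hD1c t₀ t₁ ⟨x0.2.1, ⟨x0, hx0, rfl⟩⟩ ⟨x1.2.1, ⟨x1, hx1, rfl⟩⟩
      (by rintro _ ⟨x, hx, rfl⟩; exact hrange x hx) t ht
    have ht2 := tent D2 hD2conv hD2c t₀ t₁ ⟨x0.2.2, ⟨x0, hx0, rfl⟩⟩ ⟨x1.2.2, ⟨x1, hx1, rfl⟩⟩
      (by rintro _ ⟨x, hx, rfl⟩; exact hrange x hx) t ht
    have e1 : {p : ℝ | (t, p) ∈ D1} = Prod.fst '' C t := hsec1 t
    have e2 : {p : ℝ | (t, p) ∈ D2} = Prod.snd '' C t := hsec2 t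
    rw [e1] at ht1
    rw [e2] at ht2
    have eσ : σ t = volume (Prod.mk t ⁻¹' S ∩ Prod.fst '' C t) := by
      simp only [σ, preimage_inter, hsec1 t]
    have eτ : τ' t = volume (Prod.mk t ⁻¹' T ∩ Prod.snd '' C t) := by
      simp only [τ', preimage_inter, hsec2 t]
    rw [eσ, eτ]
    exact core_ennreal_aux hfst.measure_lt_top.ne hsnd.measure_lt_top.ne
      (lt_of_le_of_lt (measure_mono inter_subset_right) hfst.measure_lt_top).ne
      (lt_of_le_of_lt (measure_mono inter_subset_right) hsnd.measure_lt_top).ne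
      h1 hV1top h2 hV2top hL2ne hL2top ENNReal.ofReal_ne_top hpl ht1 ht2
  -- integrate
  have hS' : ∫⁻ t, σ t ≤ volume S := by
    have : volume (S ∩ D1) = ∫⁻ t, σ t := by
      rw [Measure.volume_eq_prod, Measure.prod_apply (hS.inter hD1m)]
    rw [← this]
    exact measure_mono inter_subset_left
  have hT' : ∫⁻ t, τ' t ≤ volume T := by
    have : volume (T ∩ D2) = ∫⁻ t, τ' t := by
      rw [Measure.volume_eq_prod, Measure.prod_apply (hT.inter hD2m)]
    rw [← this]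
    exact measure_mono inter_subset_left
  have hinv1 : (volume D1)⁻¹ ≠ ⊤ := ENNReal.inv_ne_top.mpr h1
  have hinv2 : (volume D2)⁻¹ ≠ ⊤ := ENNReal.inv_ne_top.mpr h2
  have hL2inv : L2⁻¹ ≠ ⊤ := ENNReal.inv_ne_top.mpr hL2ne
  calc (1 / 2 : ENNReal)
      = (∫⁻ t in Icc t₀ t₁, μ t) / L2 := by
        rw [tentInt t₀ t₁ ht01, hL2, ← ENNReal.ofReal_div_of_pos hLpos]
        have hne : t₁ - t₀ ≠ 0 := sub_ne_zero.mpr hlt.ne'
        have : (t₁ - t₀) ^ 2 / 2 / (t₁ - t₀) ^ 2 = 1 / 2 := by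
          field_simp
        rw [this, ENNReal.ofReal_div_of_pos two_pos]
        simp
    _ = ∫⁻ t in Icc t₀ t₁, μ t / L2 := by
        simp only [div_eq_mul_inv]
        rw [lintegral_mul_const' _ _ hL2inv]
    _ ≤ ∫⁻ t in Icc t₀ t₁, (σ t / volume D1 + τ' t / volume D2) :=
        setLIntegral_mono' measurableSet_Icc hpt
    _ ≤ ∫⁻ t, (σ t / volume D1 + τ' t / volume D2) := setLIntegral_le_lintegral _ _
    _ = (∫⁻ t, σ t) / volume D1 + (∫⁻ t, τ' t) / volume D2 := by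
        simp only [div_eq_mul_inv]
        rw [lintegral_add_left (hσm.mul_const _), lintegral_mul_const' _ _ hinv1,
          lintegral_mul_const' _ _ hinv2]
    _ ≤ volume S / volume D1 + volume T / volume D2 :=
        add_le_add (ENNReal.div_le_div_right hS' _) (ENNReal.div_le_div_right hT' _)

/-- **Coordinate core** of the two-direction cylinder covering theorem. -/
theorem core_of
    (plank : ∀ (C : Set (ℝ × ℝ)), Convex ℝ C → IsCompact C → ∀ (S T : Set ℝ), MeasurableSet S →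
        MeasurableSet T → (∀ z ∈ C, z.1 ∈ S ∨ z.2 ∈ T) →
        volume (Prod.fst '' C) * volume (Prod.snd '' C)
          ≤ volume (S ∩ Prod.fst '' C) * volume (Prod.snd '' C)
            + volume (T ∩ Prod.snd '' C) * volume (Prod.fst '' C))
    (tent : ∀ (D : Set (ℝ × ℝ)), Convex ℝ D → IsCompact D → ∀ (t₀ t₁ : ℝ), (∃ p, (t₀, p) ∈ D) →
        (∃ p, (t₁, p) ∈ D) → (∀ z ∈ D, t₀ ≤ z.1 ∧ z.1 ≤ t₁) → ∀ τ ∈ Set.Icc t₀ t₁,
        volume D * ENNReal.ofReal (2 * min (τ - t₀) (t₁ - τ))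
          ≤ ENNReal.ofReal ((t₁ - t₀) ^ 2) * volume {p : ℝ | (τ, p) ∈ D})
    (tentInt : ∀ (t₀ t₁ : ℝ), t₀ ≤ t₁ →
        ∫⁻ t in Set.Icc t₀ t₁, ENNReal.ofReal (2 * min (t - t₀) (t₁ - t))
          = ENNReal.ofReal ((t₁ - t₀) ^ 2 / 2))
    {K : Set (ℝ × ℝ × ℝ)} (hK : Convex ℝ K) (hKc : IsCompact K)
    {S T : Set (ℝ × ℝ)} (hcov : ∀ x ∈ K, (x.1, x.2.1) ∈ S ∨ (x.1, x.2.2) ∈ T)
    (h1 : volume ((fun x : ℝ × ℝ × ℝ => (x.1, x.2.1)) '' K) ≠ 0)
    (h2 : volume ((fun x : ℝ × ℝ × ℝ => (x.1, x.2.2)) '' K) ≠ 0) :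
    (1 / 2 : ENNReal) ≤ volume S / volume ((fun x : ℝ × ℝ × ℝ => (x.1, x.2.1)) '' K)
      + volume T / volume ((fun x : ℝ × ℝ × ℝ => (x.1, x.2.2)) '' K) := by
  have hcov' : ∀ x ∈ K, (x.1, x.2.1) ∈ toMeasurable volume S ∨ (x.1, x.2.2) ∈ toMeasurable volume T := by
    intro x hx
    rcases hcov x hx with h | h
    · exact Or.inl (subset_toMeasurable _ _ h)
    · exact Or.inr (subset_toMeasurable _ _ h)
  have key := core_of_measurable plank tent tentInt hK hKc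
    (measurableSet_toMeasurable volume S) (measurableSet_toMeasurable volume T) hcov' h1 h2
  rw [measure_toMeasurable, measure_toMeasurable] at key
  exact key

end Vale.Agent.Lib.Helper7.P243
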